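import Mathlib

namespace Vale.Agent.Lib.P028

/-- Counting lemma: among `b < q'`, the points `(t + b) / q'` lie in the arc set of modulus `q`
for at most `2 ψ q' + gcd q q'` values of `b`. -/
theorem card_filter_le (q q' : ℕ) (hq : 0 < q) (hq' : 0 < q') (t γ ψ : ℝ) (hψ : 0 ≤ ψ)
    (B : Finset ℕ) (hB : B ⊆ Finset.range q')
    (hmem : ∀ b ∈ B, ∃ a : ℤ, |(q : ℝ) * ((t + b) / q') - a - γ| < ψ) :
    (B.card : ℝ) ≤ 2 * ψ * q' + (Nat.gcd q q') := by
  classical
  set g := Nat.gcd q q' with hg
  have hgpos : 0 < g := Nat.gcd_pos_of_pos_left _ hq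
  obtain ⟨u, hu⟩ : g ∣ q := Nat.gcd_dvd_left q q'
  obtain ⟨u', hu'⟩ : g ∣ q' := Nat.gcd_dvd_right q q'
  have hupos : 0 < u := by
    rcases Nat.eq_zero_or_pos u with h | h
    · rw [h, Nat.mul_zero] at hu; omega
    · exact h
  have hu'pos : 0 < u' := by
    rcases Nat.eq_zero_or_pos u' with h | h
    · rw [h, Nat.mul_zero] at hu'; omega
    · exact h
  have hcop : Nat.Coprime u u' := by
    have := Nat.coprime_div_gcd_div_gcd (m := q) (n := q') hgpos
    rw [← hg] at this
    have h1 : q / g = u := by rw [hu]; exact Nat.mul_div_cancel_left _ hgpos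
    have h2 : q' / g = u' := by rw [hu']; exact Nat.mul_div_cancel_left _ hgpos
    rwa [h1, h2] at this
  -- choose the integers
  choose! a ha using hmem
  set r : ℝ := ψ * u' with hr
  set c : ℝ := γ * u' - u * t with hc
  let f : ℕ → ℤ := fun b => (u : ℤ) * b - a b * u'
  have hu'R : (0 : ℝ) < u' := by exact_mod_cast hu'pos
  have hf_near : ∀ b ∈ B, |(f b : ℝ) - c| < r := by
    intro b hb
    have h := ha b hb
    have hgR : (0 : ℝ) < g := by exact_mod_cast hgpos
    have hq'R : ((q' : ℕ) : ℝ) = g * u' := by rw [hu']; push_cast; ring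
    have hqR : ((q : ℕ) : ℝ) = g * u := by rw [hu]; push_cast; ring
    have key : (q : ℝ) * ((t + b) / q') - a b - γ = ((f b : ℝ) - c) / u' := by
      simp only [f, hc, hqR, hq'R]
      push_cast
      field_simp
      ring
    rw [key, abs_div, abs_of_pos hu'R, div_lt_iff₀ hu'R] at h
    exact h
  -- the image lies in an integer interval
  set lo : ℤ := ⌈c - r⌉ with hlo
  set hi : ℤ := ⌊c + r⌋ with hhi
  have hmaps : ∀ b ∈ B, f b ∈ Finset.Icc lo hi := by
    intro b hb
    have h := hf_near b hb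
    rw [abs_lt] at h
    rw [Finset.mem_Icc]
    constructor
    · apply Int.ceil_le.mpr; linarith [h.1]
    · apply Int.le_floor.mpr; linarith [h.2]
  -- fibres have at most g elements
  have hfib : ∀ n ∈ Finset.Icc lo hi, (B.filter (fun b => f b = n)).card ≤ g := by
    intro n _
    have hinj : Set.InjOn (fun b => b / u') (B.filter (fun b => f b = n) : Set ℕ) := by
      intro x hx y hy hxy
      simp only [Finset.coe_filter, Set.mem_ofPred_eq] at hx hy
      have hfx := hx.2
      have hfy := hy.2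
      have hmod : (u : ℤ) * ((x : ℤ) - y) = (a x - a y) * u' := by
        have : f x = f y := by rw [hfx, hfy]
        simp only [f] at this
        linarith
      have hdvd : (u' : ℤ) ∣ (u : ℤ) * ((x : ℤ) - y) := ⟨a x - a y, by rw [hmod]; ring⟩
      have hdvd2 : (u' : ℤ) ∣ ((x : ℤ) - y) := by
        apply IsCoprime.dvd_of_dvd_mul_left _ hdvd
        have : IsCoprime (u' : ℤ) (u : ℤ) := by
          exact_mod_cast (Nat.isCoprime_iff_coprime.mpr hcop.symm)
        exact this
      have hxy' : x / u' = y / u' := hxy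
      have hxe := Nat.div_add_mod x u'
      have hye := Nat.div_add_mod y u'
      have hlt1 := Nat.mod_lt x hu'pos
      have hlt2 := Nat.mod_lt y hu'pos
      obtain ⟨k, hk⟩ := hdvd2
      have h3 : (x : ℤ) - y = ((x % u' : ℕ) : ℤ) - ((y % u' : ℕ) : ℤ) := by
        have h1 : (x : ℤ) = (u' : ℤ) * ((x / u' : ℕ) : ℤ) + ((x % u' : ℕ) : ℤ) := by exact_mod_cast hxe.symm
        have h2 : (y : ℤ) = (u' : ℤ) * ((y / u' : ℕ) : ℤ) + ((y % u' : ℕ) : ℤ) := by exact_mod_cast hye.symm
        rw [h1, h2, hxy']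
        simp
      have hkz : k = 0 := by
        have h4 : (u' : ℤ) * k = ((x % u' : ℕ) : ℤ) - ((y % u' : ℕ) : ℤ) := by rw [← hk, h3]
        have hlt1' : ((x % u' : ℕ) : ℤ) < u' := by exact_mod_cast hlt1
        have hlt2' : ((y % u' : ℕ) : ℤ) < u' := by exact_mod_cast hlt2
        have h0 : (0 : ℤ) < u' := by exact_mod_cast hu'pos
        have hnn1 : (0 : ℤ) ≤ ((x % u' : ℕ) : ℤ) := by positivity
        have hnn2 : (0 : ℤ) ≤ ((y % u' : ℕ) : ℤ) := by positivity
        by_contra hk0
        rcases lt_or_gt_of_ne hk0 with h | h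
        · have : (u' : ℤ) * k ≤ (u' : ℤ) * (-1) := by
            apply mul_le_mul_of_nonneg_left (by omega) (by omega)
          omega
        · have : (u' : ℤ) * 1 ≤ (u' : ℤ) * k := by
            apply mul_le_mul_of_nonneg_left (by omega) (by omega)
          omega
      rw [hkz] at hk
      have : (x : ℤ) = y := by linarith
      exact_mod_cast this
    have hmapsto : Set.MapsTo (fun b => b / u') (B.filter (fun b => f b = n) : Set ℕ) (Finset.range g : Set ℕ) := by
      intro x hx
      simp only [Finset.coe_filter, Set.mem_ofPred_eq] at hx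
      have hxr := Finset.mem_range.mp (hB hx.1)
      simp only [Finset.coe_range, Set.mem_Iio]
      apply Nat.div_lt_of_lt_mul
      rw [mul_comm, ← hu']
      exact hxr
    have := Finset.card_le_card_of_injOn (fun b => b / u') hmapsto hinj
    simpa using this
  have hcard := Finset.card_le_mul_card_image_of_maps_to hmaps g hfib
  -- bound the number of integers in the interval
  have hIcc : (((Finset.Icc lo hi).card : ℕ) : ℝ) ≤ 2 * r + 1 := by
    rw [Int.card_Icc]
    have hrnn : 0 ≤ r := by positivity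
    have h1 : (lo : ℝ) ≥ c - r := Int.le_ceil _
    have h2 : (hi : ℝ) ≤ c + r := Int.floor_le _
    by_cases hneg : (hi + 1 - lo) ≤ 0
    · have : (hi + 1 - lo).toNat = 0 := Int.toNat_of_nonpos hneg
      rw [this]
      simp only [Nat.cast_zero]
      linarith
    · push Not at hneg
      have hh : (((hi + 1 - lo).toNat : ℕ) : ℤ) = hi + 1 - lo := Int.toNat_of_nonneg hneg.le
      have hh' : (((hi + 1 - lo).toNat : ℕ) : ℝ) = (hi : ℝ) + 1 - lo := by
        have : (((hi + 1 - lo).toNat : ℕ) : ℝ) = (((((hi + 1 - lo).toNat : ℕ) : ℤ)) : ℝ) := by norm_cast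
        rw [this, hh]; push_cast; ring
      rw [hh']
      linarith
  have hfin : (B.card : ℝ) ≤ (g : ℝ) * ((Finset.Icc lo hi).card : ℝ) := by exact_mod_cast hcard
  have hgR : (0 : ℝ) ≤ g := by positivity
  calc (B.card : ℝ) ≤ (g : ℝ) * ((Finset.Icc lo hi).card : ℝ) := hfin
    _ ≤ (g : ℝ) * (2 * r + 1) := mul_le_mul_of_nonneg_left hIcc hgR
    _ = 2 * ψ * q' + g := by
        rw [hr, hu']; push_cast; ring

end Vale.Agent.Lib.P028
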