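import Mathlib
import Vale.Agent.Lib.P028.Count

open MeasureTheory Set Filter Topology

namespace Vale.Agent.Lib.P028

/-- The set of real `x` with `|q x - a - γ| < ψ` for some integer `a`. -/
def arcSet (q : ℕ) (γ ψ : ℝ) : Set ℝ := {x | ∃ a : ℤ, |(q : ℝ) * x - a - γ| < ψ}

theorem isOpen_arcSet (q : ℕ) (γ ψ : ℝ) : IsOpen (arcSet q γ ψ) := by
  have : arcSet q γ ψ = ⋃ a : ℤ, {x : ℝ | |(q : ℝ) * x - a - γ| < ψ} := by
    ext x; simp [arcSet]
  rw [this]
  apply isOpen_iUnion
  intro a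
  apply isOpen_lt (by fun_prop) continuous_const

theorem measurableSet_arcSet (q : ℕ) (γ ψ : ℝ) : MeasurableSet (arcSet q γ ψ) :=
  (isOpen_arcSet q γ ψ).measurableSet

/-- Indicator function (real valued) of a set. -/
noncomputable def ind (S : Set ℝ) : ℝ → ℝ := S.indicator (fun _ => (1 : ℝ))

theorem ind_nonneg (S : Set ℝ) (x : ℝ) : 0 ≤ ind S x := by
  unfold ind; exact Set.indicator_nonneg (fun _ _ => zero_le_one) x

theorem ind_le_one (S : Set ℝ) (x : ℝ) : ind S x ≤ 1 := by
  unfold ind; exact Set.indicator_le_self' (fun _ _ => zero_le_one) x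

theorem measurable_ind {S : Set ℝ} (hS : MeasurableSet S) : Measurable (ind S) :=
  measurable_const.indicator hS

theorem intervalIntegrable_of_bdd {F : ℝ → ℝ} (hm : Measurable F) (C : ℝ) (hC : ∀ x, |F x| ≤ C)
    (a b : ℝ) : IntervalIntegrable F volume a b := by
  rw [intervalIntegrable_iff]
  have : MeasureTheory.IntegrableOn F (Set.uIoc a b) volume := by
    apply Measure.integrableOn_of_bounded (M := C)
    · exact (measure_Ioc_lt_top (a := min a b) (b := max a b)).ne
    · exact hm.aestronglyMeasurable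
    · exact Filter.Eventually.of_forall (fun x => by simpa using hC x)
  exact this

/-- Splitting the unit interval into `n` pieces. -/
theorem integral_split (F : ℝ → ℝ) (hF : ∀ a b, IntervalIntegrable F volume a b) (n : ℕ)
    (hn : 0 < n) :
    ∫ x in (0:ℝ)..1, F x = ∑ b ∈ Finset.range n, (1 / (n : ℝ)) * ∫ t in (0:ℝ)..1, F ((t + b) / n) := by
  have hnR : (0 : ℝ) < n := by exact_mod_cast hn
  have h1 := intervalIntegral.sum_integral_adjacent_intervals (f := F) (μ := volume)
    (a := fun k : ℕ => (k : ℝ) / n) (n := n) (fun k _ => hF _ _)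
  have h2 : ((0 : ℕ) : ℝ) / n = 0 := by simp
  have h3 : (n : ℝ) / n = 1 := div_self hnR.ne'
  rw [h2, h3] at h1
  rw [← h1]
  apply Finset.sum_congr rfl
  intro b _
  have h4 := intervalIntegral.integral_comp_div_add (a := 0) (b := 1) (c := (n : ℝ)) F hnR.ne' ((b : ℝ) / n)
  have h5 : ∀ t : ℝ, F ((t + b) / n) = F (t / n + (b : ℝ) / n) := by
    intro t; congr 1; rw [add_div]
  simp_rw [h5]
  rw [h4]
  have h6 : (0 : ℝ) / n + (b : ℝ) / n = (b : ℝ) / n := by simp
  have h7 : (1 : ℝ) / n + (b : ℝ) / n = ((b + 1 : ℕ) : ℝ) / n := by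
    push_cast; ring
  rw [h6, h7, smul_eq_mul]
  field_simp

theorem arcSet_one_mem_iff (q : ℕ) (hq : 0 < q) (γ ψ t : ℝ) (b : ℕ) :
    (t + b) / q ∈ arcSet q γ ψ ↔ t ∈ arcSet 1 γ ψ := by
  have hqR : (q : ℝ) ≠ 0 := by exact_mod_cast hq.ne'
  constructor
  · rintro ⟨a, ha⟩
    refine ⟨a - b, ?_⟩
    have : (q : ℝ) * ((t + b) / q) = t + b := by field_simp
    rw [this] at ha
    have h2 : ((1 : ℕ) : ℝ) * t - ((a - b : ℤ) : ℝ) - γ = t + b - a - γ := by
      push_cast; ring
    rw [h2]; exact ha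
  · rintro ⟨a, ha⟩
    refine ⟨a + b, ?_⟩
    have : (q : ℝ) * ((t + b) / q) = t + b := by field_simp
    rw [this]
    have h2 : t + b - ((a + b : ℤ) : ℝ) - γ = ((1 : ℕ) : ℝ) * t - a - γ := by
      push_cast; ring
    rw [h2]; exact ha

theorem ind_arcSet_periodic (γ ψ : ℝ) : Function.Periodic (ind (arcSet 1 γ ψ)) 1 := by
  intro x
  have : x + 1 ∈ arcSet 1 γ ψ ↔ x ∈ arcSet 1 γ ψ := by
    constructor
    · rintro ⟨a, ha⟩
      refine ⟨a - 1, ?_⟩
      have h2 : ((1 : ℕ) : ℝ) * x - ((a - 1 : ℤ) : ℝ) - γ = ((1 : ℕ) : ℝ) * (x + 1) - a - γ := by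
        push_cast; ring
      rw [h2]; exact ha
    · rintro ⟨a, ha⟩
      refine ⟨a + 1, ?_⟩
      have h2 : ((1 : ℕ) : ℝ) * (x + 1) - ((a + 1 : ℤ) : ℝ) - γ = ((1 : ℕ) : ℝ) * x - a - γ := by
        push_cast; ring
      rw [h2]; exact ha
  unfold ind
  by_cases h : x ∈ arcSet 1 γ ψ
  · rw [Set.indicator_of_mem h, Set.indicator_of_mem (this.mpr h)]
  · rw [Set.indicator_of_notMem h, Set.indicator_of_notMem (fun h' => h (this.mp h'))]

/-- Measure of the basic arc: on the unit interval the arc of half length `ψ ≤ 1/2` has length `2ψ`. -/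
theorem integral_ind_arc (γ ψ : ℝ) (h0 : 0 ≤ ψ) (h1 : ψ ≤ 1 / 2) :
    ∫ t in (0:ℝ)..1, ind (arcSet 1 γ ψ) t = 2 * ψ := by
  have hper := (ind_arcSet_periodic γ ψ).intervalIntegral_add_eq 0 (γ - 1 / 2)
  have e1 : (0 : ℝ) + 1 = 1 := by norm_num
  have e2 : γ - 1 / 2 + 1 = γ + 1 / 2 := by ring
  rw [e1, e2] at hper
  rw [hper]
  have hle : γ - 1 / 2 ≤ γ + 1 / 2 := by linarith
  rw [intervalIntegral.integral_of_le hle]
  have hcongr : ∫ t in Set.Ioc (γ - 1 / 2) (γ + 1 / 2), ind (arcSet 1 γ ψ) t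
      = ∫ t in Set.Ioc (γ - 1 / 2) (γ + 1 / 2), (Set.Ioo (γ - ψ) (γ + ψ)).indicator (fun _ => (1 : ℝ)) t := by
    apply MeasureTheory.setIntegral_congr_fun measurableSet_Ioc
    intro t ht
    have hiff : t ∈ arcSet 1 γ ψ ↔ t ∈ Set.Ioo (γ - ψ) (γ + ψ) := by
      constructor
      · rintro ⟨a, ha⟩
        have ha' : |t - a - γ| < ψ := by simpa using ha
        have hta : a = 0 := by
          by_contra hne
          have h3 : (1 : ℝ) ≤ |(a : ℝ)| := by
            have : (1 : ℤ) ≤ |a| := Int.one_le_abs hne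
            exact_mod_cast this
          have h4 : |t - γ| ≤ 1 / 2 := by
            rw [abs_le]; constructor <;> linarith [ht.1, ht.2]
          have h5 : |(a : ℝ)| ≤ |t - a - γ| + |t - γ| := by
            have : (a : ℝ) = (t - γ) - (t - a - γ) := by ring
            calc |(a : ℝ)| = |(t - γ) - (t - a - γ)| := by rw [← this]
              _ ≤ |t - γ| + |t - a - γ| := abs_sub _ _
              _ = |t - a - γ| + |t - γ| := add_comm _ _
          linarith
        rw [hta] at ha'
        simp only [Int.cast_zero, sub_zero] at ha'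
        rw [abs_lt] at ha'
        constructor <;> linarith [ha'.1, ha'.2]
      · rintro ⟨h3, h4⟩
        refine ⟨0, ?_⟩
        simp only [Nat.cast_one, one_mul, Int.cast_zero, sub_zero]
        rw [abs_lt]
        constructor <;> linarith
    unfold ind
    by_cases h : t ∈ arcSet 1 γ ψ
    · rw [Set.indicator_of_mem h, Set.indicator_of_mem (hiff.mp h)]
    · rw [Set.indicator_of_notMem h, Set.indicator_of_notMem (fun h' => h (hiff.mpr h'))]
  rw [hcongr]
  rw [MeasureTheory.integral_indicator measurableSet_Ioo]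
  have hsub : Set.Ioo (γ - ψ) (γ + ψ) ⊆ Set.Ioc (γ - 1 / 2) (γ + 1 / 2) := by
    intro t ht
    exact ⟨by linarith [ht.1], by linarith [ht.2]⟩
  rw [Measure.restrict_restrict measurableSet_Ioo]
  rw [Set.inter_eq_self_of_subset_left hsub]
  simp only [integral_const, MeasurableSet.univ, measureReal_restrict_apply, Set.univ_inter, smul_eq_mul, mul_one]
  rw [Measure.real, Real.volume_Ioo, ENNReal.toReal_ofReal (by linarith)]
  ring

/-- First moment. -/
theorem integral_ind_arcSet (q : ℕ) (hq : 0 < q) (γ ψ : ℝ) (h0 : 0 ≤ ψ) (h1 : ψ ≤ 1 / 2) :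
    ∫ x in (0:ℝ)..1, ind (arcSet q γ ψ) x = 2 * ψ := by
  have hm := measurable_ind (measurableSet_arcSet q γ ψ)
  have hF : ∀ a b, IntervalIntegrable (ind (arcSet q γ ψ)) volume a b := fun a b =>
    intervalIntegrable_of_bdd hm 1 (fun x => by
      rw [abs_of_nonneg (ind_nonneg _ x)]; exact ind_le_one _ x) a b
  rw [integral_split _ hF q hq]
  have hqR : (q : ℝ) ≠ 0 := by exact_mod_cast hq.ne'
  have key : ∀ b ∈ Finset.range q, (1 / (q : ℝ)) * ∫ t in (0:ℝ)..1, ind (arcSet q γ ψ) ((t + b) / q)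
      = (1 / (q : ℝ)) * (2 * ψ) := by
    intro b _
    congr 1
    rw [← integral_ind_arc γ ψ h0 h1]
    apply intervalIntegral.integral_congr
    intro t _
    simp only [ind, Set.indicator]
    by_cases h : t ∈ arcSet 1 γ ψ
    · rw [if_pos ((arcSet_one_mem_iff q hq γ ψ t b).mpr h), if_pos h]
    · rw [if_neg (fun h' => h ((arcSet_one_mem_iff q hq γ ψ t b).mp h')), if_neg h]
  rw [Finset.sum_congr rfl key, Finset.sum_const, Finset.card_range, nsmul_eq_mul]
  field_simp

/-- Second moment: the overlap bound `|E_q ∩ E_q'| ≤ 2ψ' (2ψ + gcd(q,q')/q')`. -/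
theorem integral_ind_mul_le (q q' : ℕ) (hq : 0 < q) (hq' : 0 < q') (γ ψ γ' ψ' : ℝ)
    (h0 : 0 ≤ ψ) (h0' : 0 ≤ ψ') (h1' : ψ' ≤ 1 / 2) :
    ∫ x in (0:ℝ)..1, ind (arcSet q γ ψ) x * ind (arcSet q' γ' ψ') x
      ≤ (2 * ψ') * (2 * ψ + (Nat.gcd q q' : ℝ) / q') := by
  have hmq := measurable_ind (measurableSet_arcSet q γ ψ)
  have hmq' := measurable_ind (measurableSet_arcSet q' γ' ψ')
  have hqR : (0 : ℝ) < q' := by exact_mod_cast hq'
  have hbd1 : ∀ x, |ind (arcSet q γ ψ) x| ≤ 1 := fun x => by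
    rw [abs_of_nonneg (ind_nonneg _ x)]; exact ind_le_one _ x
  have hbd2 : ∀ x, |ind (arcSet q' γ' ψ') x| ≤ 1 := fun x => by
    rw [abs_of_nonneg (ind_nonneg _ x)]; exact ind_le_one _ x
  have hF : ∀ a b, IntervalIntegrable (fun x => ind (arcSet q γ ψ) x * ind (arcSet q' γ' ψ') x) volume a b :=
    fun a b => intervalIntegrable_of_bdd (hmq.mul hmq') 1 (fun x => by
      simp only [Pi.mul_apply]
      rw [abs_mul]
      calc |ind (arcSet q γ ψ) x| * |ind (arcSet q' γ' ψ') x| ≤ 1 * 1 :=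
            mul_le_mul (hbd1 x) (hbd2 x) (abs_nonneg _) zero_le_one
        _ = 1 := by norm_num) a b
  rw [integral_split _ hF q' hq']
  -- rewrite each term
  set A := arcSet 1 γ' ψ' with hA
  have hmA : Measurable (ind A) := measurable_ind (measurableSet_arcSet 1 γ' ψ')
  have key : ∀ b ∈ Finset.range q', (1 / (q' : ℝ)) *
      ∫ t in (0:ℝ)..1, ind (arcSet q γ ψ) ((t + b) / q') * ind (arcSet q' γ' ψ') ((t + b) / q')
      = (1 / (q' : ℝ)) * ∫ t in (0:ℝ)..1, ind A t * ind (arcSet q γ ψ) ((t + b) / q') := by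
    intro b _
    congr 1
    apply intervalIntegral.integral_congr
    intro t _
    have : ind (arcSet q' γ' ψ') ((t + b) / q') = ind A t := by
      simp only [ind, Set.indicator, hA]
      by_cases h : t ∈ arcSet 1 γ' ψ'
      · rw [if_pos ((arcSet_one_mem_iff q' hq' γ' ψ' t b).mpr h), if_pos h]
      · rw [if_neg (fun h' => h ((arcSet_one_mem_iff q' hq' γ' ψ' t b).mp h')), if_neg h]
    simp only
    rw [this]; ring
  rw [Finset.sum_congr rfl key, ← Finset.mul_sum]
  -- swap sum and integral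
  have hcont : ∀ b : ℕ, Measurable (fun t : ℝ => ind (arcSet q γ ψ) ((t + b) / q')) := fun b =>
    hmq.comp (by fun_prop)
  have hint : ∀ b ∈ Finset.range q', IntervalIntegrable
      (fun t => ind A t * ind (arcSet q γ ψ) ((t + b) / q')) volume 0 1 := by
    intro b _
    apply intervalIntegrable_of_bdd (hmA.mul (hcont b)) 1
    intro x
    simp only [Pi.mul_apply]
    rw [abs_mul]
    calc |ind A x| * |ind (arcSet q γ ψ) ((x + b) / q')| ≤ 1 * 1 := by
          apply mul_le_mul _ (hbd1 _) (abs_nonneg _) zero_le_one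
          rw [abs_of_nonneg (ind_nonneg _ x)]; exact ind_le_one _ x
      _ = 1 := by norm_num
  rw [← intervalIntegral.integral_finsetSum hint]
  -- pointwise bound
  set K : ℝ := 2 * ψ * q' + (Nat.gcd q q' : ℝ) with hK
  have hKnn : 0 ≤ K := by positivity
  have hpt : ∀ t : ℝ, ∑ b ∈ Finset.range q', ind A t * ind (arcSet q γ ψ) ((t + b) / q') ≤ ind A t * K := by
    intro t
    rw [← Finset.mul_sum]
    apply mul_le_mul_of_nonneg_left _ (ind_nonneg _ _)
    classical
    set B := (Finset.range q').filter (fun b : ℕ => (t + b) / q' ∈ arcSet q γ ψ) with hB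
    have hsum : ∑ b ∈ Finset.range q', ind (arcSet q γ ψ) ((t + b) / q') = (B.card : ℝ) := by
      simp only [ind, Set.indicator]
      rw [Finset.sum_ite, Finset.sum_const_zero, add_zero, Finset.sum_const, nsmul_eq_mul, mul_one]
    rw [hsum]
    apply card_filter_le q q' hq hq' t γ ψ h0 B (Finset.filter_subset _ _)
    intro b hb
    exact (Finset.mem_filter.mp hb).2
  have hle : ∫ t in (0:ℝ)..1, ∑ b ∈ Finset.range q', ind A t * ind (arcSet q γ ψ) ((t + b) / q')
      ≤ ∫ t in (0:ℝ)..1, ind A t * K := by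
    apply intervalIntegral.integral_mono_on (by norm_num)
    · exact (IntervalIntegrable.sum (Finset.range q') (fun b hb => hint b hb)).congr
        (fun t _ => by simp [Finset.sum_apply])
    · apply intervalIntegrable_of_bdd (hmA.mul measurable_const) K
      intro x
      simp only [Pi.mul_apply]
      rw [abs_mul, abs_of_nonneg hKnn]
      calc |ind A x| * K ≤ 1 * K := by
            apply mul_le_mul_of_nonneg_right _ hKnn
            rw [abs_of_nonneg (ind_nonneg _ x)]; exact ind_le_one _ x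
        _ = K := one_mul K
    · intro t _; exact hpt t
  have hval : ∫ t in (0:ℝ)..1, ind A t * K = 2 * ψ' * K := by
    rw [intervalIntegral.integral_mul_const, integral_ind_arc γ' ψ' h0' h1']
  rw [hval] at hle
  calc (1 / (q' : ℝ)) * ∫ t in (0:ℝ)..1, ∑ b ∈ Finset.range q', ind A t * ind (arcSet q γ ψ) ((t + b) / q')
      ≤ (1 / (q' : ℝ)) * (2 * ψ' * K) := by
        apply mul_le_mul_of_nonneg_left hle (by positivity)
    _ = (2 * ψ') * (2 * ψ + (Nat.gcd q q' : ℝ) / q') := by
        rw [hK]; field_simp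

end Vale.Agent.Lib.P028
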