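import Mathlib
import Vale.Agent.Lib.P028.Moments

open MeasureTheory Set Filter Topology

namespace Vale.Agent.Lib.P028

section SecondMoment

variable (s : Finset ℕ) (γ ψ : ℕ → ℝ)

/-- The functions of the family. -/
noncomputable def fam (q : ℕ) : ℝ → ℝ := ind (arcSet q (γ q) (ψ q))

theorem fam_meas (q : ℕ) : Measurable (fam γ ψ q) := measurable_ind (measurableSet_arcSet _ _ _)

theorem fam_abs_le (q : ℕ) (x : ℝ) : |fam γ ψ q x| ≤ 1 := by
  unfold fam; rw [abs_of_nonneg (ind_nonneg _ x)]; exact ind_le_one _ x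

theorem fam_int (q : ℕ) (a b : ℝ) : IntervalIntegrable (fam γ ψ q) volume a b :=
  intervalIntegrable_of_bdd (fam_meas γ ψ q) 1 (fam_abs_le γ ψ q) a b

theorem fam_mul_int (q q' : ℕ) (a b : ℝ) :
    IntervalIntegrable (fun x => fam γ ψ q x * fam γ ψ q' x) volume a b :=
  intervalIntegrable_of_bdd ((fam_meas γ ψ q).mul (fam_meas γ ψ q')) 1 (fun x => by
    simp only [Pi.mul_apply]
    rw [abs_mul]
    calc |fam γ ψ q x| * |fam γ ψ q' x| ≤ 1 * 1 :=
          mul_le_mul (fam_abs_le γ ψ q x) (fam_abs_le γ ψ q' x) (abs_nonneg _) zero_le_one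
      _ = 1 := by norm_num) a b

/-- The exceptional set. -/
def missSet : Set ℝ := {x | ∀ q ∈ s, x ∉ arcSet q (γ q) (ψ q)}

theorem missSet_meas : MeasurableSet (missSet s γ ψ) := by
  have : missSet s γ ψ = ⋂ q ∈ s, (arcSet q (γ q) (ψ q))ᶜ := by
    ext x; simp [missSet]
  rw [this]
  exact Finset.measurableSet_biInter _ (fun q _ => (measurableSet_arcSet _ _ _).compl)

theorem cheb_bound (h0 : ∀ q, 0 ≤ ψ q) (h1 : ∀ q, ψ q ≤ 1 / 2) (hs : ∀ q ∈ s, 0 < q) :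
    (∑ q ∈ s, 2 * ψ q) ^ 2 * ∫ x in (0:ℝ)..1, ind (missSet s γ ψ) x
      ≤ (∑ q ∈ s, ∑ q' ∈ s, ∫ x in (0:ℝ)..1, fam γ ψ q x * fam γ ψ q' x)
          - (∑ q ∈ s, 2 * ψ q) ^ 2 := by
  set M := ∑ q ∈ s, 2 * ψ q with hM
  have hfirst : ∀ q ∈ s, ∫ x in (0:ℝ)..1, fam γ ψ q x = 2 * ψ q := fun q hq =>
    integral_ind_arcSet q (hs q hq) (γ q) (ψ q) (h0 q) (h1 q)
  -- pointwise inequality
  have hpt : ∀ x : ℝ, M ^ 2 * ind (missSet s γ ψ) x
      ≤ (∑ q ∈ s, ∑ q' ∈ s, fam γ ψ q x * fam γ ψ q' x) - 2 * M * (∑ q ∈ s, fam γ ψ q x) + M ^ 2 := by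
    intro x
    have hsq : (∑ q ∈ s, ∑ q' ∈ s, fam γ ψ q x * fam γ ψ q' x) = (∑ q ∈ s, fam γ ψ q x) ^ 2 := by
      rw [sq, Finset.sum_mul_sum]
    rw [hsq]
    by_cases hx : x ∈ missSet s γ ψ
    · have hzero : ∑ q ∈ s, fam γ ψ q x = 0 := by
        apply Finset.sum_eq_zero
        intro q hq
        unfold fam ind
        exact Set.indicator_of_notMem (hx q hq) _
      rw [hzero]
      simp only [ind, Set.indicator_of_mem hx]
      nlinarith
    · have : ind (missSet s γ ψ) x = 0 := by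
        unfold ind; exact Set.indicator_of_notMem hx _
      rw [this]
      nlinarith [sq_nonneg ((∑ q ∈ s, fam γ ψ q x) - M)]
  -- integrate
  have hintZ : IntervalIntegrable (fun x => M ^ 2 * ind (missSet s γ ψ) x) volume 0 1 := by
    apply IntervalIntegrable.const_mul
    exact intervalIntegrable_of_bdd (measurable_ind (missSet_meas s γ ψ)) 1 (fun x => by
      rw [abs_of_nonneg (ind_nonneg _ x)]; exact ind_le_one _ x) 0 1
  have hint1 : IntervalIntegrable (fun x => ∑ q ∈ s, ∑ q' ∈ s, fam γ ψ q x * fam γ ψ q' x) volume 0 1 := by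
    have h := IntervalIntegrable.sum s (fun q _ =>
      IntervalIntegrable.sum s (fun q' _ => fam_mul_int γ ψ q q' 0 1))
    exact h.congr (fun t _ => by simp [Finset.sum_apply])
  have hint2 : IntervalIntegrable (fun x => ∑ q ∈ s, fam γ ψ q x) volume 0 1 := by
    have h := IntervalIntegrable.sum s (fun q _ => fam_int γ ψ q 0 1)
    exact h.congr (fun t _ => by simp [Finset.sum_apply])
  have hint3 : IntervalIntegrable (fun x => 2 * M * ∑ q ∈ s, fam γ ψ q x) volume 0 1 :=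
    hint2.const_mul _
  have hmono := intervalIntegral.integral_mono_on (a := 0) (b := 1) (by norm_num) hintZ
    (((hint1.sub hint3).add (intervalIntegrable_const (c := M ^ 2)))) (fun x _ => hpt x)
  rw [intervalIntegral.integral_const_mul] at hmono
  have e1 : ∫ x in (0:ℝ)..1, ((∑ q ∈ s, ∑ q' ∈ s, fam γ ψ q x * fam γ ψ q' x)
        - 2 * M * (∑ q ∈ s, fam γ ψ q x) + M ^ 2)
      = (∑ q ∈ s, ∑ q' ∈ s, ∫ x in (0:ℝ)..1, fam γ ψ q x * fam γ ψ q' x) - 2 * M * M + M ^ 2 := by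
    have a1 : ∫ x in (0:ℝ)..1, ∑ q ∈ s, ∑ q' ∈ s, fam γ ψ q x * fam γ ψ q' x
        = ∑ q ∈ s, ∑ q' ∈ s, ∫ x in (0:ℝ)..1, fam γ ψ q x * fam γ ψ q' x := by
      rw [intervalIntegral.integral_finsetSum (fun q _ =>
          (IntervalIntegrable.sum s (fun q' _ => fam_mul_int γ ψ q q' 0 1)).congr
            (fun t _ => by simp [Finset.sum_apply]))]
      apply Finset.sum_congr rfl
      intro q _
      rw [intervalIntegral.integral_finsetSum (fun q' _ => fam_mul_int γ ψ q q' 0 1)]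
    have a2 : ∫ x in (0:ℝ)..1, ∑ q ∈ s, fam γ ψ q x = M := by
      rw [intervalIntegral.integral_finsetSum (fun q _ => fam_int γ ψ q 0 1)]
      exact Finset.sum_congr rfl hfirst
    have a3 : ∫ _x in (0:ℝ)..1, M ^ 2 = M ^ 2 := by simp
    rw [intervalIntegral.integral_add (hint1.sub hint3) intervalIntegrable_const,
      intervalIntegral.integral_sub hint1 hint3, intervalIntegral.integral_const_mul, a1, a2, a3]
  rw [e1] at hmono
  linarith

/-- The truncated gcd sum inside a finite family. -/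
noncomputable def gcdSum (q' : ℕ) : ℝ :=
  ∑ q ∈ s, if q < q' then (Nat.gcd q q' : ℝ) / q' else 0

theorem gcdSum_nonneg (q' : ℕ) : 0 ≤ gcdSum s q' := by
  unfold gcdSum
  apply Finset.sum_nonneg
  intro q _
  split_ifs
  · positivity
  · exact le_refl _

theorem pair_bound (h0 : ∀ q, 0 ≤ ψ q) (h1 : ∀ q, ψ q ≤ 1 / 2) (q q' : ℕ) (hq : 0 < q) (hq' : 0 < q') :
    ∫ x in (0:ℝ)..1, fam γ ψ q x * fam γ ψ q' x
      ≤ (2 * ψ q) * (2 * ψ q') + (if q = q' then 2 * ψ q else 0)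
        + (if q < q' then 2 * ψ q' * ((Nat.gcd q q' : ℝ) / q') else 0)
        + (if q' < q then 2 * ψ q * ((Nat.gcd q' q : ℝ) / q) else 0) := by
  rcases lt_trichotomy q q' with h | h | h
  · have := integral_ind_mul_le q q' hq hq' (γ q) (ψ q) (γ q') (ψ q') (h0 q) (h0 q') (h1 q')
    simp only [fam]
    rw [if_neg h.ne, if_pos h, if_neg (by omega)]
    nlinarith
  · subst h
    have hsq : ∫ x in (0:ℝ)..1, fam γ ψ q x * fam γ ψ q x = 2 * ψ q := by
      rw [← integral_ind_arcSet q hq (γ q) (ψ q) (h0 q) (h1 q)]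
      apply intervalIntegral.integral_congr
      intro x _
      simp only [fam, ind, Set.indicator]
      split_ifs <;> norm_num
    rw [hsq, if_pos rfl, if_neg (lt_irrefl _)]
    nlinarith [h0 q]
  · have := integral_ind_mul_le q' q hq' hq (γ q') (ψ q') (γ q) (ψ q) (h0 q') (h0 q) (h1 q)
    have hcomm : ∫ x in (0:ℝ)..1, fam γ ψ q x * fam γ ψ q' x
        = ∫ x in (0:ℝ)..1, ind (arcSet q' (γ q') (ψ q')) x * ind (arcSet q (γ q) (ψ q)) x := by
      apply intervalIntegral.integral_congr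
      intro x _
      simp only [fam]; ring
    rw [hcomm, if_neg h.ne', if_neg (by omega), if_pos h]
    nlinarith

theorem pair_sum_bound (h0 : ∀ q, 0 ≤ ψ q) (h1 : ∀ q, ψ q ≤ 1 / 2) (hs : ∀ q ∈ s, 0 < q) :
    (∑ q ∈ s, ∑ q' ∈ s, ∫ x in (0:ℝ)..1, fam γ ψ q x * fam γ ψ q' x)
      ≤ (∑ q ∈ s, 2 * ψ q) ^ 2 + (∑ q ∈ s, 2 * ψ q) + 4 * ∑ q ∈ s, ψ q * gcdSum s q := by
  have hstep : (∑ q ∈ s, ∑ q' ∈ s, ∫ x in (0:ℝ)..1, fam γ ψ q x * fam γ ψ q' x)
      ≤ ∑ q ∈ s, ∑ q' ∈ s, ((2 * ψ q) * (2 * ψ q') + (if q = q' then 2 * ψ q else 0)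
        + (if q < q' then 2 * ψ q' * ((Nat.gcd q q' : ℝ) / q') else 0)
        + (if q' < q then 2 * ψ q * ((Nat.gcd q' q : ℝ) / q) else 0)) := by
    apply Finset.sum_le_sum
    intro q hq
    apply Finset.sum_le_sum
    intro q' hq'
    exact pair_bound γ ψ h0 h1 q q' (hs q hq) (hs q' hq')
  have h1' : ∑ q ∈ s, ∑ q' ∈ s, (2 * ψ q) * (2 * ψ q') = (∑ q ∈ s, 2 * ψ q) ^ 2 := by
    rw [sq, Finset.sum_mul_sum]
  have h2' : ∑ q ∈ s, ∑ q' ∈ s, (if q = q' then 2 * ψ q else 0) = ∑ q ∈ s, 2 * ψ q := by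
    apply Finset.sum_congr rfl
    intro q hq
    rw [Finset.sum_ite_eq]
    simp [hq]
  have h3' : ∑ q ∈ s, ∑ q' ∈ s, (if q < q' then 2 * ψ q' * ((Nat.gcd q q' : ℝ) / q') else 0)
      = ∑ q ∈ s, 2 * (ψ q * gcdSum s q) := by
    rw [Finset.sum_comm]
    apply Finset.sum_congr rfl
    intro q' _
    unfold gcdSum
    rw [Finset.mul_sum, Finset.mul_sum]
    apply Finset.sum_congr rfl
    intro q _
    split_ifs
    · ring
    · ring
  have h4' : ∑ q ∈ s, ∑ q' ∈ s, (if q' < q then 2 * ψ q * ((Nat.gcd q' q : ℝ) / q) else 0)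
      = ∑ q ∈ s, 2 * (ψ q * gcdSum s q) := by
    apply Finset.sum_congr rfl
    intro q _
    unfold gcdSum
    rw [Finset.mul_sum, Finset.mul_sum]
    apply Finset.sum_congr rfl
    intro q' _
    split_ifs
    · ring
    · ring
  calc _ ≤ _ := hstep
    _ = (∑ q ∈ s, ∑ q' ∈ s, (2 * ψ q) * (2 * ψ q')) + (∑ q ∈ s, ∑ q' ∈ s, (if q = q' then 2 * ψ q else 0))
        + (∑ q ∈ s, ∑ q' ∈ s, (if q < q' then 2 * ψ q' * ((Nat.gcd q q' : ℝ) / q') else 0))
        + (∑ q ∈ s, ∑ q' ∈ s, (if q' < q then 2 * ψ q * ((Nat.gcd q' q : ℝ) / q) else 0)) := by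
        simp only [Finset.sum_add_distrib]
    _ = _ := by
        have h5 : ∑ q ∈ s, 2 * (ψ q * gcdSum s q) = 2 * ∑ q ∈ s, ψ q * gcdSum s q :=
          (Finset.mul_sum _ _ _).symm
        rw [h1', h2', h3', h4', h5]
        ring

/-- The Chebyshev bound in final form. -/
theorem miss_bound (h0 : ∀ q, 0 ≤ ψ q) (h1 : ∀ q, ψ q ≤ 1 / 2) (hs : ∀ q ∈ s, 0 < q) :
    (∑ q ∈ s, 2 * ψ q) ^ 2 * ∫ x in (0:ℝ)..1, ind (missSet s γ ψ) x
      ≤ (∑ q ∈ s, 2 * ψ q) + 4 * ∑ q ∈ s, ψ q * gcdSum s q := by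
  have a := cheb_bound s γ ψ h0 h1 hs
  have b := pair_sum_bound s γ ψ h0 h1 hs
  linarith

end SecondMoment

/-- Truncation of the approximation function at `1/2`. -/
noncomputable def trunc (ψ : ℕ → ℝ) (q : ℕ) : ℝ := min (ψ q) (1 / 2)

/-- The gcd sum over the support of `ψ`: `∑_{1 ≤ r < q, ψ r > 0} gcd(r,q) / q`. -/
noncomputable def supportGcdSum (ψ : ℕ → ℝ) (q : ℕ) : ℝ :=
  ∑ r ∈ Finset.range q, if 0 < r ∧ 0 < ψ r then (Nat.gcd r q : ℝ) / q else 0

theorem supportGcdSum_nonneg (ψ : ℕ → ℝ) (q : ℕ) : 0 ≤ supportGcdSum ψ q := by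
  unfold supportGcdSum
  apply Finset.sum_nonneg
  intro r _
  split_ifs
  · positivity
  · exact le_refl _

theorem gcdSum_le (ψ : ℕ → ℝ) (s : Finset ℕ) (hs : ∀ q ∈ s, 0 < q ∧ 0 < ψ q) (q' : ℕ) :
    gcdSum s q' ≤ supportGcdSum ψ q' := by
  unfold gcdSum supportGcdSum
  have h1 : ∑ q ∈ s, (if q < q' then (Nat.gcd q q' : ℝ) / q' else 0)
      = ∑ q ∈ s.filter (fun q => q < q'), (Nat.gcd q q' : ℝ) / q' := by
    rw [Finset.sum_filter]
  rw [h1]
  have h2 : s.filter (fun q => q < q') ⊆ Finset.range q' := by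
    intro q hq
    exact Finset.mem_range.mpr (Finset.mem_filter.mp hq).2
  calc ∑ q ∈ s.filter (fun q => q < q'), (Nat.gcd q q' : ℝ) / q'
      = ∑ q ∈ s.filter (fun q => q < q'), (if 0 < q ∧ 0 < ψ q then (Nat.gcd q q' : ℝ) / q' else 0) := by
        apply Finset.sum_congr rfl
        intro q hq
        rw [if_pos (hs q (Finset.mem_filter.mp hq).1)]
    _ ≤ ∑ r ∈ Finset.range q', if 0 < r ∧ 0 < ψ r then (Nat.gcd r q' : ℝ) / q' else 0 := by
        apply Finset.sum_le_sum_of_subset_of_nonneg h2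
        intro r _ _
        split_ifs
        · positivity
        · exact le_refl _

end Vale.Agent.Lib.P028
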