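import Mathlib
import Vale.Agent.Lib.P028.Main

open MeasureTheory Set Filter Topology

namespace Vale.Agent.Lib.P028

theorem trunc_nonneg {ψ : ℕ → ℝ} (h0 : ∀ q, 0 ≤ ψ q) (q : ℕ) : 0 ≤ trunc ψ q :=
  le_min (h0 q) (by norm_num)

theorem trunc_le_half (ψ : ℕ → ℝ) (q : ℕ) : trunc ψ q ≤ 1 / 2 := min_le_right _ _

theorem integral_ind_eq (S : Set ℝ) (hS : MeasurableSet S) :
    ∫ x in (0:ℝ)..1, ind S x = (volume (S ∩ Ioc 0 1)).toReal := by
  rw [intervalIntegral.integral_of_le (by norm_num)]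
  unfold ind
  rw [MeasureTheory.integral_indicator hS, Measure.restrict_restrict hS]
  simp [Measure.real]

theorem sum_Icc_eq (f : ℕ → ℝ) (R Q : ℕ) (hRQ : R ≤ Q) :
    ∑ q ∈ Finset.Icc 1 Q, f q = ∑ q ∈ Finset.Icc 1 R, f q + ∑ q ∈ Finset.Ioc R Q, f q := by
  have h1 : ∀ n : ℕ, Finset.Icc 1 n = Finset.Ioc 0 n := by
    intro n; ext x; simp only [Finset.mem_Icc, Finset.mem_Ioc]; omega
  rw [h1, h1, Finset.sum_Ioc_consecutive _ (Nat.zero_le R) hRQ]

theorem tail_null (γ ψ : ℕ → ℝ) (h0 : ∀ q, 0 ≤ ψ q)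
    (hdiv : Tendsto (fun Q => ∑ q ∈ Finset.Icc 1 Q, trunc ψ q) atTop atTop)
    (hcrit : ∀ ε : ℝ, 0 < ε → ∃ᶠ Q in atTop, ∑ q ∈ Finset.Icc 1 Q, trunc ψ q * supportGcdSum ψ q
        ≤ ε * (∑ q ∈ Finset.Icc 1 Q, trunc ψ q) ^ 2) (R : ℕ) :
    volume ({x : ℝ | ∀ q, R < q → x ∉ arcSet q (γ q) (trunc ψ q)} ∩ Ioc 0 1) = 0 := by
  set T : Set ℝ := {x : ℝ | ∀ q, R < q → x ∉ arcSet q (γ q) (trunc ψ q)} ∩ Ioc 0 1 with hT
  have hfin : volume T ≠ ⊤ := by
    apply ne_of_lt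
    calc volume T ≤ volume (Ioc (0:ℝ) 1) := measure_mono inter_subset_right
      _ < ⊤ := measure_Ioc_lt_top
  have hr : ∀ ε : ℝ, 0 < ε → (volume T).toReal ≤ 6 * ε := by
    intro ε hε
    set Ψ : ℕ → ℝ := fun Q => ∑ q ∈ Finset.Icc 1 Q, trunc ψ q with hΨ
    have hΨR : 0 ≤ Ψ R := Finset.sum_nonneg (fun q _ => trunc_nonneg h0 q)
    have hev : ∀ᶠ Q in atTop, (2 * Ψ R + 1 ≤ Ψ Q) ∧ (1 / ε ≤ Ψ Q) ∧ (R ≤ Q) := by
      have h1 := hdiv.eventually_ge_atTop (2 * Ψ R + 1)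
      have h2 := hdiv.eventually_ge_atTop (1 / ε)
      have h3 := eventually_ge_atTop R
      filter_upwards [h1, h2, h3] with Q a b c
      exact ⟨a, b, c⟩
    obtain ⟨Q, hcritQ, hQ1, hQ2, hRQ⟩ := ((hcrit ε hε).and_eventually hev).exists
    have hΨQpos : 0 < Ψ Q := by
      have : 0 < 2 * Ψ R + 1 := by linarith
      linarith
    classical
    set s : Finset ℕ := (Finset.Ioc R Q).filter (fun q => 0 < ψ q) with hs
    set φ := trunc ψ with hφ
    have hsp : ∀ q ∈ s, 0 < q ∧ 0 < ψ q := by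
      intro q hq
      have h := Finset.mem_filter.mp hq
      have h' := Finset.mem_Ioc.mp h.1
      exact ⟨by omega, h.2⟩
    have hφ0 : ∀ q, 0 ≤ φ q := trunc_nonneg h0
    have hφ1 : ∀ q, φ q ≤ 1 / 2 := trunc_le_half ψ
    have hbound := miss_bound s γ φ hφ0 hφ1 (fun q hq => (hsp q hq).1)
    -- the first moment
    have hsumφ : ∑ q ∈ s, φ q = Ψ Q - Ψ R := by
      have h1 : ∑ q ∈ s, φ q = ∑ q ∈ Finset.Ioc R Q, φ q := by
        rw [hs, Finset.sum_filter]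
        apply Finset.sum_congr rfl
        intro q _
        split_ifs with h
        · rfl
        · have : ψ q = 0 := le_antisymm (not_lt.mp h) (h0 q)
          simp [hφ, trunc, this]
      rw [h1]
      have h2 := sum_Icc_eq φ R Q hRQ
      simp only [hΨ]
      linarith
    have hM : ∑ q ∈ s, 2 * φ q = 2 * (Ψ Q - Ψ R) := by
      rw [← Finset.mul_sum, hsumφ]
    rw [hM] at hbound
    -- the second moment
    have hsec : ∑ q ∈ s, φ q * gcdSum s q ≤ ε * Ψ Q ^ 2 := by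
      calc ∑ q ∈ s, φ q * gcdSum s q ≤ ∑ q ∈ s, φ q * supportGcdSum ψ q := by
            apply Finset.sum_le_sum
            intro q _
            exact mul_le_mul_of_nonneg_left (gcdSum_le ψ s hsp q) (hφ0 q)
        _ ≤ ∑ q ∈ Finset.Icc 1 Q, φ q * supportGcdSum ψ q := by
            apply Finset.sum_le_sum_of_subset_of_nonneg
            · intro q hq
              have h := Finset.mem_filter.mp hq
              have h' := Finset.mem_Ioc.mp h.1
              exact Finset.mem_Icc.mpr ⟨by omega, h'.2⟩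
            · intro q _ _
              exact mul_nonneg (hφ0 q) (supportGcdSum_nonneg ψ q)
        _ ≤ ε * Ψ Q ^ 2 := hcritQ
    set I : ℝ := ∫ x in (0:ℝ)..1, ind (missSet s γ φ) x with hI
    have hIeq : I = (volume (missSet s γ φ ∩ Ioc 0 1)).toReal :=
      integral_ind_eq _ (missSet_meas s γ φ)
    have hInn : 0 ≤ I := by rw [hIeq]; exact ENNReal.toReal_nonneg
    -- numerics
    have hMge : Ψ Q ≤ 2 * (Ψ Q - Ψ R) := by linarith
    have hMle : 2 * (Ψ Q - Ψ R) ≤ 2 * Ψ Q := by linarith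
    have hMsq : Ψ Q ^ 2 ≤ (2 * (Ψ Q - Ψ R)) ^ 2 := by
      apply pow_le_pow_left₀ hΨQpos.le hMge
    have h1 : Ψ Q ^ 2 * I ≤ 2 * Ψ Q + 4 * (ε * Ψ Q ^ 2) := by
      calc Ψ Q ^ 2 * I ≤ (2 * (Ψ Q - Ψ R)) ^ 2 * I := mul_le_mul_of_nonneg_right hMsq hInn
        _ ≤ 2 * (Ψ Q - Ψ R) + 4 * ∑ q ∈ s, φ q * gcdSum s q := hbound
        _ ≤ 2 * Ψ Q + 4 * (ε * Ψ Q ^ 2) := by linarith
    have h2 : 1 ≤ ε * Ψ Q := by
      have := mul_le_mul_of_nonneg_left hQ2 hε.le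
      rwa [mul_one_div_cancel hε.ne'] at this
    have hI6 : I ≤ 6 * ε := by
      have h3 : Ψ Q ^ 2 * I ≤ Ψ Q ^ 2 * (6 * ε) := by
        have h4 : 2 * Ψ Q ≤ 2 * (ε * Ψ Q ^ 2) := by
          have : Ψ Q * 1 ≤ Ψ Q * (ε * Ψ Q) := mul_le_mul_of_nonneg_left h2 hΨQpos.le
          nlinarith
        nlinarith
      exact le_of_mul_le_mul_left h3 (by positivity)
    have hTsub : T ⊆ missSet s γ φ ∩ Ioc 0 1 := by
      intro x hx
      refine ⟨?_, hx.2⟩
      intro q hq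
      have h := Finset.mem_filter.mp hq
      have h' := Finset.mem_Ioc.mp h.1
      exact hx.1 q h'.1
    have hfin2 : volume (missSet s γ φ ∩ Ioc 0 1) ≠ ⊤ := by
      apply ne_of_lt
      calc volume (missSet s γ φ ∩ Ioc 0 1) ≤ volume (Ioc (0:ℝ) 1) := measure_mono inter_subset_right
        _ < ⊤ := measure_Ioc_lt_top
    calc (volume T).toReal ≤ (volume (missSet s γ φ ∩ Ioc 0 1)).toReal :=
          ENNReal.toReal_mono hfin2 (measure_mono hTsub)
      _ = I := hIeq.symm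
      _ ≤ 6 * ε := hI6
  have h00 : (volume T).toReal ≤ 0 := by
    apply le_of_forall_pos_le_add
    intro ε hε
    have := hr (ε / 6) (by positivity)
    have e : 6 * (ε / 6) = ε := by ring
    rw [e] at this
    linarith
  have h01 : (volume T).toReal = 0 := le_antisymm h00 ENNReal.toReal_nonneg
  rcases (ENNReal.toReal_eq_zero_iff _).mp h01 with h | h
  · exact h
  · exact absurd h hfin

/-- Main theorem (general form). -/
theorem ae_infinitely_many (γ ψ : ℕ → ℝ) (h0 : ∀ q, 0 ≤ ψ q)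
    (hdiv : Tendsto (fun Q => ∑ q ∈ Finset.Icc 1 Q, trunc ψ q) atTop atTop)
    (hcrit : ∀ ε : ℝ, 0 < ε → ∃ᶠ Q in atTop, ∑ q ∈ Finset.Icc 1 Q, trunc ψ q * supportGcdSum ψ q
        ≤ ε * (∑ q ∈ Finset.Icc 1 Q, trunc ψ q) ^ 2) :
    ∀ᵐ x : ℝ, ∃ᶠ q : ℕ in atTop, ∃ a : ℤ, |(q : ℝ) * x - a - γ q| < ψ q := by
  set G : Set ℝ := {x : ℝ | ∃ᶠ q : ℕ in atTop, ∃ a : ℤ, |(q : ℝ) * x - a - γ q| < ψ q} with hG
  -- on the unit interval
  have hunit : volume (Gᶜ ∩ Ioc 0 1) = 0 := by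
    have hnull : volume (⋃ R : ℕ, {x : ℝ | ∀ q, R < q → x ∉ arcSet q (γ q) (trunc ψ q)} ∩ Ioc 0 1) = 0 :=
      measure_iUnion_null (fun R => tail_null γ ψ h0 hdiv hcrit R)
    apply measure_mono_null _ hnull
    intro x hx
    have hxG : x ∉ G := hx.1
    rw [hG] at hxG
    simp only [Set.mem_ofPred_eq, Filter.not_frequently, Filter.eventually_atTop] at hxG
    obtain ⟨R, hR⟩ := hxG
    refine mem_iUnion.mpr ⟨R, ?_, hx.2⟩
    intro q hq hmem
    obtain ⟨a, ha⟩ := hmem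
    have : |(q : ℝ) * x - a - γ q| < ψ q := lt_of_lt_of_le ha (min_le_left _ _)
    exact hR q hq.le ⟨a, this⟩
  -- periodicity of the good set
  have hper : ∀ (x : ℝ) (n : ℤ), x ∈ G ↔ x + n ∈ G := by
    intro x n
    have key : ∀ (y : ℝ) (m : ℤ), y ∈ G → y + m ∈ G := by
      intro y m hy
      refine hy.mono ?_
      rintro q ⟨a, ha⟩
      refine ⟨a + q * m, ?_⟩
      have e : (q : ℝ) * (y + m) - ((a + q * m : ℤ) : ℝ) - γ q = (q : ℝ) * y - a - γ q := by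
        push_cast; ring
      rw [e]; exact ha
    constructor
    · exact key x n
    · intro h
      have := key (x + n) (-n) h
      simpa using this
  -- all other unit intervals
  have hall : ∀ n : ℤ, volume (Gᶜ ∩ Ioc (n : ℝ) (n + 1)) = 0 := by
    intro n
    have e : Gᶜ ∩ Ioc (n : ℝ) (n + 1) = (fun y : ℝ => y + (-(n : ℝ))) ⁻¹' (Gᶜ ∩ Ioc 0 1) := by
      ext y
      simp only [mem_inter_iff, mem_compl_iff, mem_Ioc, mem_preimage]
      have h1 : y ∈ G ↔ y + (-(n : ℝ)) ∈ G := by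
        have := hper y (-n)
        simpa using this
      rw [h1]
      constructor
      · rintro ⟨a, b, c⟩; exact ⟨a, by linarith, by linarith⟩
      · rintro ⟨a, b, c⟩; exact ⟨a, by linarith, by linarith⟩
    rw [e, measure_preimage_add_right]
    exact hunit
  -- conclusion
  have hcover : Gᶜ ⊆ ⋃ n : ℤ, Gᶜ ∩ Ioc (n : ℝ) (n + 1) := by
    intro x hx
    have : x ∈ ⋃ n : ℤ, Ioc (n : ℝ) (n + 1) := by
      rw [iUnion_Ioc_intCast]; exact mem_univ x
    obtain ⟨n, hn⟩ := mem_iUnion.mp this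
    exact mem_iUnion.mpr ⟨n, hx, hn⟩
  have hnull : volume Gᶜ = 0 := measure_mono_null hcover (measure_iUnion_null hall)
  exact mem_ae_iff.mpr hnull

end Vale.Agent.Lib.P028
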