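import Mathlib
import Vale.Agent.Lib.P028.Final

open MeasureTheory Set Filter Topology

namespace Vale.Agent.Lib.P028

/-- The gcd sum is at most the number of divisors. -/
theorem supportGcdSum_le_card_divisors (ψ : ℕ → ℝ) (q : ℕ) (hq : 0 < q) :
    supportGcdSum ψ q ≤ ((Nat.divisors q).card : ℝ) := by
  classical
  unfold supportGcdSum
  have hqR : (0 : ℝ) < q := by exact_mod_cast hq
  -- bound each term by a sum over divisors
  have hterm : ∀ r ∈ Finset.range q, (if 0 < r ∧ 0 < ψ r then (Nat.gcd r q : ℝ) / q else 0)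
      ≤ ∑ d ∈ Nat.divisors q, if 0 < r ∧ d ∣ r then (d : ℝ) / q else 0 := by
    intro r _
    by_cases h : 0 < r ∧ 0 < ψ r
    · rw [if_pos h]
      have hgd : Nat.gcd r q ∈ Nat.divisors q :=
        Nat.mem_divisors.mpr ⟨Nat.gcd_dvd_right r q, hq.ne'⟩
      have h1 : (if 0 < r ∧ Nat.gcd r q ∣ r then ((Nat.gcd r q : ℕ) : ℝ) / q else 0) = (Nat.gcd r q : ℝ) / q := by
        rw [if_pos ⟨h.1, Nat.gcd_dvd_left r q⟩]
      rw [← h1]
      apply Finset.single_le_sum (f := fun d : ℕ => if 0 < r ∧ d ∣ r then (d : ℝ) / q else 0) _ hgd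
      intro d _
      split_ifs
      · positivity
      · exact le_refl _
    · rw [if_neg h]
      apply Finset.sum_nonneg
      intro d _
      split_ifs
      · positivity
      · exact le_refl _
  calc ∑ r ∈ Finset.range q, (if 0 < r ∧ 0 < ψ r then (Nat.gcd r q : ℝ) / q else 0)
      ≤ ∑ r ∈ Finset.range q, ∑ d ∈ Nat.divisors q, (if 0 < r ∧ d ∣ r then (d : ℝ) / q else 0) :=
        Finset.sum_le_sum hterm
    _ = ∑ d ∈ Nat.divisors q, ∑ r ∈ Finset.range q, (if 0 < r ∧ d ∣ r then (d : ℝ) / q else 0) :=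
        Finset.sum_comm
    _ ≤ ∑ d ∈ Nat.divisors q, (1 : ℝ) := by
        apply Finset.sum_le_sum
        intro d hd
        have hdq := Nat.mem_divisors.mp hd
        have hdpos : 0 < d := Nat.pos_of_mem_divisors hd
        obtain ⟨e, he⟩ := hdq.1
        -- the multiples of d below q
        have hcount : ((Finset.range q).filter (fun r => 0 < r ∧ d ∣ r)).card ≤ e := by
          have hsub : Set.MapsTo (fun r => r / d) ((Finset.range q).filter (fun r => 0 < r ∧ d ∣ r) : Set ℕ)
              (Finset.range e : Set ℕ) := by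
            intro r hr
            simp only [Finset.coe_filter, Finset.mem_range, Set.mem_ofPred_eq] at hr
            simp only [Finset.coe_range, Set.mem_Iio]
            rw [he] at hr
            exact Nat.div_lt_of_lt_mul hr.1
          have hinj : Set.InjOn (fun r => r / d) ((Finset.range q).filter (fun r => 0 < r ∧ d ∣ r) : Set ℕ) := by
            intro x hx y hy hxy
            simp only [Finset.coe_filter, Finset.mem_range, Set.mem_ofPred_eq] at hx hy
            have h1 := Nat.div_mul_cancel hx.2.2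
            have h2 := Nat.div_mul_cancel hy.2.2
            simp only at hxy
            rw [← h1, ← h2, hxy]
          have := Finset.card_le_card_of_injOn (fun r => r / d) hsub hinj
          simpa using this
        have hsum : ∑ r ∈ Finset.range q, (if 0 < r ∧ d ∣ r then (d : ℝ) / q else 0)
            = (((Finset.range q).filter (fun r => 0 < r ∧ d ∣ r)).card : ℝ) * ((d : ℝ) / q) := by
          rw [← Finset.sum_filter, Finset.sum_const, nsmul_eq_mul]
        rw [hsum]
        have hqe : (q : ℝ) = d * e := by rw [he]; push_cast; ring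
        have hdR : (0 : ℝ) < d := by exact_mod_cast hdpos
        have heR : (0 : ℝ) < e := by
          have : 0 < e := by
            rcases Nat.eq_zero_or_pos e with h | h
            · rw [h, Nat.mul_zero] at he; omega
            · exact h
          exact_mod_cast this
        have hc : (((Finset.range q).filter (fun r => 0 < r ∧ d ∣ r)).card : ℝ) ≤ e := by
          exact_mod_cast hcount
        calc (((Finset.range q).filter (fun r => 0 < r ∧ d ∣ r)).card : ℝ) * ((d : ℝ) / q)
            ≤ (e : ℝ) * ((d : ℝ) / q) := by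
              apply mul_le_mul_of_nonneg_right hc (by positivity)
          _ = 1 := by rw [hqe]; field_simp
    _ = ((Nat.divisors q).card : ℝ) := by simp

/-- Divergence of the truncated sum from non-summability of the weighted sum. -/
theorem trunc_tendsto (ψ : ℕ → ℝ) (h0 : ∀ q, 0 ≤ ψ q)
    (hw : ¬ Summable (fun q : ℕ => (Nat.totient q : ℝ) / q * ψ q)) :
    Tendsto (fun Q => ∑ q ∈ Finset.Icc 1 Q, trunc ψ q) atTop atTop := by
  have hnonneg : ∀ q, 0 ≤ trunc ψ q := trunc_nonneg h0
  have hnot : ¬ Summable (trunc ψ) := by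
    intro hs
    apply hw
    have hlim : Tendsto (trunc ψ) atTop (𝓝 0) := hs.tendsto_atTop_zero
    have hev : ∀ᶠ q in atTop, trunc ψ q < 1 / 2 :=
      hlim.eventually (gt_mem_nhds (by norm_num))
    apply Summable.of_norm_bounded_eventually_nat hs
    filter_upwards [hev] with q hq
    have h1 : trunc ψ q = ψ q := by
      unfold trunc
      unfold trunc at hq
      rcases le_total (ψ q) (1 / 2) with h | h
      · exact min_eq_left h
      · rw [min_eq_right h] at hq; exact absurd hq (lt_irrefl _)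
    rw [Real.norm_of_nonneg (mul_nonneg (by positivity) (h0 q)), h1]
    have h2 : (Nat.totient q : ℝ) / q ≤ 1 := by
      rcases Nat.eq_zero_or_pos q with h | h
      · subst h; simp
      · have hqR : (0 : ℝ) < q := by exact_mod_cast h
        rw [div_le_one hqR]
        exact_mod_cast Nat.totient_le q
    calc (Nat.totient q : ℝ) / q * ψ q ≤ 1 * ψ q := mul_le_mul_of_nonneg_right h2 (h0 q)
      _ = ψ q := one_mul _
  have ht := (not_summable_iff_tendsto_nat_atTop_of_nonneg hnonneg).mp hnot
  -- sums over range (Q+1) minus the term at 0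
  have h1 : ∀ Q : ℕ, ∑ q ∈ Finset.Icc 1 Q, trunc ψ q = ∑ q ∈ Finset.range (Q + 1), trunc ψ q - trunc ψ 0 := by
    intro Q
    rw [Finset.sum_range_succ']
    have : ∑ k ∈ Finset.range Q, trunc ψ (k + 1) = ∑ q ∈ Finset.Icc 1 Q, trunc ψ q := by
      rw [Finset.range_eq_Ico, Finset.sum_Ico_add' (fun q => trunc ψ q) 0 Q 1]
      rfl
    linarith
  simp_rw [h1, sub_eq_add_neg]
  exact tendsto_atTop_add_const_right _ (- trunc ψ 0) (ht.comp (tendsto_add_atTop_nat 1))

/-- Clean special case: bounded divisor function on the support. -/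
theorem few_divisors (γ ψ : ℕ → ℝ) (h0 : ∀ q, 0 ≤ ψ q) (T : ℕ)
    (hT : ∀ q, 0 < ψ q → (Nat.divisors q).card ≤ T)
    (hw : ¬ Summable (fun q : ℕ => (Nat.totient q : ℝ) / q * ψ q)) :
    ∀ᵐ x : ℝ, ∃ᶠ q : ℕ in atTop, ∃ a : ℤ, |(q : ℝ) * x - a - γ q| < ψ q := by
  have hdiv := trunc_tendsto ψ h0 hw
  apply ae_infinitely_many γ ψ h0 hdiv
  intro ε hε
  apply Filter.Eventually.frequently
  have hev := hdiv.eventually_ge_atTop ((T : ℝ) / ε + 1)
  filter_upwards [hev] with Q hQ
  set Ψ := ∑ q ∈ Finset.Icc 1 Q, trunc ψ q with hΨ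
  have hΨpos : 0 < Ψ := by
    have : 0 ≤ (T : ℝ) / ε := by positivity
    linarith
  have hbound : ∑ q ∈ Finset.Icc 1 Q, trunc ψ q * supportGcdSum ψ q ≤ (T : ℝ) * Ψ := by
    rw [hΨ, Finset.mul_sum]
    apply Finset.sum_le_sum
    intro q hq
    have hqpos : 0 < q := (Finset.mem_Icc.mp hq).1
    rw [mul_comm (T : ℝ)]
    by_cases hψ : 0 < ψ q
    · apply mul_le_mul_of_nonneg_left _ (trunc_nonneg h0 q)
      calc supportGcdSum ψ q ≤ ((Nat.divisors q).card : ℝ) := supportGcdSum_le_card_divisors ψ q hqpos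
        _ ≤ (T : ℝ) := by exact_mod_cast hT q hψ
    · have : ψ q = 0 := le_antisymm (not_lt.mp hψ) (h0 q)
      have h3 : trunc ψ q = 0 := by simp [trunc, this]
      rw [h3]; simp
  have h4 : (T : ℝ) ≤ ε * Ψ := by
    have h5 : (T : ℝ) / ε ≤ Ψ := by linarith
    have := mul_le_mul_of_nonneg_left h5 hε.le
    rwa [mul_div_cancel₀ _ hε.ne'] at this
  calc ∑ q ∈ Finset.Icc 1 Q, trunc ψ q * supportGcdSum ψ q ≤ (T : ℝ) * Ψ := hbound
    _ ≤ (ε * Ψ) * Ψ := mul_le_mul_of_nonneg_right h4 hΨpos.le
    _ = ε * Ψ ^ 2 := by ring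

end Vale.Agent.Lib.P028
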